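import Vale.Agent.P088.R2.H338.V.OvB

/-!
# P088, row V-OV: the orthogonality identity for doubly harmonic matrix functions of `(x, y)`
-/

open MeasureTheory Set
open scoped ContDiff Matrix

noncomputable section

namespace Vale.Agent.P088.PJ.H338

open Vale.Agent.P088.LR Vale.Agent.P088.LR.U Vale.Agent.P088.LR.H158
open Vale.Agent.P088.HY (VV Bs Bn Un DB dx dy Lx Ly Lv Co CoOk LvG LxG LyG Pf PfOk IdP)

variable {n N : ℕ}

/-! ### smooth functions with bounded derivatives -/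

section bd

variable {F G : Type*} [NormedAddCommGroup F] [NormedSpace ℝ F] [NormedAddCommGroup G]
  [NormedSpace ℝ G]

/-- Smooth with bounded derivatives up to order `K`. -/
def Bd (K : ℕ) (f : V n → F) : Prop := ContDiff ℝ ∞ f ∧ ∃ M, Cl K M f

theorem Bd.mono {K L : ℕ} {f : V n → F} (h : Bd K f) (hL : L ≤ K) : Bd L f :=
  ⟨h.1, h.2.imp fun _ hM l hl => hM l (hl.trans hL)⟩

theorem bd_const (K : ℕ) (c : F) : Bd K (fun _ : V n => c) := by
  refine ⟨contDiff_const, ‖c‖, fun l _ x => ?_⟩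
  rcases Nat.eq_zero_or_pos l with rfl | hl
  · rw [norm_iteratedFDeriv_zero]
  · rw [iteratedFDeriv_const_of_ne hl.ne']
    simp

theorem Bd.add {K : ℕ} {f g : V n → F} (hf : Bd K f) (hg : Bd K g) :
    Bd K fun x => f x + g x := by
  obtain ⟨hf, M, hM⟩ := hf
  obtain ⟨hg, L, hL⟩ := hg
  exact ⟨hf.add hg, M + L, H91.cl_add2 hf hg hM hL⟩

theorem Bd.clm {K : ℕ} (L : F →L[ℝ] G) {f : V n → F} (hf : Bd K f) : Bd K fun x => L (f x) := by
  obtain ⟨hf, M, hM⟩ := hf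
  exact ⟨L.contDiff.comp hf, _, H91.cl_clm L hf hM⟩

theorem Bd.neg {K : ℕ} {f : V n → F} (hf : Bd K f) : Bd K fun x => -f x :=
  hf.clm (-ContinuousLinearMap.id ℝ F)

theorem Bd.sub {K : ℕ} {f g : V n → F} (hf : Bd K f) (hg : Bd K g) :
    Bd K fun x => f x - g x := by
  simp only [sub_eq_add_neg]
  exact hf.add hg.neg

theorem bd_sum {ι : Type*} (s : Finset ι) {K : ℕ} {f : ι → V n → F} (hf : ∀ i ∈ s, Bd K (f i)) :
    Bd K fun x => ∑ i ∈ s, f i x := by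
  have h2 : ∀ i : ι, ∃ M, i ∈ s → Cl K M (f i) := by
    intro i
    by_cases hi : i ∈ s
    · exact (hf i hi).2.imp fun _ h _ => h
    · exact ⟨0, fun h => absurd h hi⟩
  choose M hM using h2
  exact ⟨ContDiff.sum fun i hi => (hf i hi).1, _, H91.cl_fsum s (fun i hi => (hf i hi).1) hM⟩

theorem Bd.mul {A : Type*} [NormedRing A] [NormedAlgebra ℝ A] {K : ℕ} {f g : V n → A}
    (hf : Bd K f) (hg : Bd K g) : Bd K fun x => f x * g x := by
  obtain ⟨hf, M, hM⟩ := hf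
  obtain ⟨hg, L, hL⟩ := hg
  exact ⟨hf.mul hg, _, H91.cl_mul2 hf hg hM hL⟩

theorem Bd.pd {K : ℕ} {f : V n → F} (hf : Bd (K + 1) f) (i : Fin n) : Bd K (pd i f) := by
  obtain ⟨hf, M, hM⟩ := hf
  have h1 : Bd K (fderiv ℝ f) := by
    refine ⟨hf.fderiv_right (m := ∞) (by simp), M, fun l hl x => ?_⟩
    rw [norm_iteratedFDeriv_fderiv]
    exact hM (l + 1) (by omega) x
  exact h1.clm (ContinuousLinearMap.apply ℝ F (Pi.single i 1 : V n))

theorem Bd.ge {K : ℕ} {f : V n → F} (hf : Bd K f) : ∃ M₀ : ℝ, ∀ M, M₀ ≤ M → Cl K M f := by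
  obtain ⟨-, M, hM⟩ := hf
  exact ⟨M, fun L hL => H91.cl_le hM hL⟩

end bd

theorem coOk_e1 {K : ℕ} {B : Fin n → MC n N} (hB : ∀ l a b, Bd K (fun x => B l x a b)) :
    ∃ M₀ : ℝ, ∀ M, M₀ ≤ M → CoOk K M M (e1 B) := by
  have h1 : ∀ l p q, Bd K (fun x => (e1 B).b l x p q) := by
    intro l p q
    simp only [e1, Matrix.of_apply, rz]
    exact ((hB l _ _).mul (bd_const K _)).clm (cp _)
  have h2 : ∀ t : Fin n × Fin (N * 2) × Fin (N * 2), ∃ M₀ : ℝ, ∀ M, M₀ ≤ M →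
      Cl K M (fun x => (e1 B).b t.1 x t.2.1 t.2.2) := fun t => (h1 _ _ _).ge
  choose M₀ hM₀ using h2
  refine ⟨∑ t, |M₀ t|, fun M hM => ⟨fun l p q => (h1 l p q).1, fun p q => contDiff_const,
    fun l p q => ?_, fun p q => ?_⟩⟩
  · refine hM₀ (l, p, q) M (le_trans ?_ hM)
    exact (le_abs_self _).trans
      (Finset.single_le_sum (f := fun t => |M₀ t|) (fun t _ => abs_nonneg _)
        (Finset.mem_univ (l, p, q)))
  · have h0 : 0 ≤ M := (Finset.sum_nonneg fun t _ => abs_nonneg _).trans hM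
    intro l _ x
    have : (fun x : V n => (e1 B).c x p q) = fun _ => (0 : ℝ) := rfl
    rw [this]
    have h3 : iteratedFDeriv ℝ l (fun _ : V n => (0 : ℝ)) = 0 := iteratedFDeriv_fun_zero
    rw [h3]
    simpa using h0

/-! ### bounds of the coefficients -/

section coef

variable {K : ℕ} {s : MF n} {P : MC n N} {G : Fin n → MC n N}

theorem bd_TP (hs : ∀ i j, Bd K (fun x => s x i j)) (hP : ∀ a b, Bd K (fun x => P x a b))
    (i j : Fin n) (a b : Fin N) : Bd K (fun x => TP s P i j x a b) :=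
  ((hs i j).clm Complex.ofRealCLM).mul (hP a b)

theorem bd_kp (hs : ∀ i j, Bd K (fun x => s x i j)) (hG : ∀ i a b, Bd K (fun x => G i x a b))
    (i : Fin n) (a b : Fin N) : Bd K (fun x => kp s G i x a b) := by
  simp only [kp, Matrix.sum_apply, Matrix.smul_apply, smul_eq_mul]
  exact bd_sum _ fun j _ => ((hs i j).clm Complex.ofRealCLM).mul (hG j a b)

theorem bd_mulM {P Q : MC n N} (hP : ∀ a b, Bd K (fun x => P x a b))
    (hQ : ∀ a b, Bd K (fun x => Q x a b)) (a b : Fin N) : Bd K (fun x => (P x * Q x) a b) := by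
  simp only [Matrix.mul_apply]
  exact bd_sum _ fun c _ => (hP a c).mul (hQ c b)

theorem bd_bL (hs : ∀ i j, Bd (K + 1) (fun x => s x i j))
    (hP : ∀ a b, Bd (K + 1) (fun x => P x a b)) (hG : ∀ i a b, Bd (K + 1) (fun x => G i x a b))
    (hI : ∀ a b, Bd K (fun x => (P x)⁻¹ a b)) (l : Fin n) (a b : Fin N) :
    Bd K (fun x => bL s P G l x a b) := by
  refine bd_mulM hI (fun a b => ?_) a b
  simp only [Matrix.add_apply, Matrix.sum_apply, pdm, Matrix.of_apply]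
  exact (bd_sum _ fun i _ => (bd_TP hs hP i l a b).pd i).add
    ((bd_kp hs hG l a b).mono (Nat.le_succ K))

theorem bd_bR (hs : ∀ i j, Bd (K + 1) (fun x => s x i j))
    (hP : ∀ a b, Bd (K + 1) (fun x => P x a b)) (hG : ∀ i a b, Bd (K + 1) (fun x => G i x a b))
    (hI : ∀ a b, Bd K (fun x => (P x)⁻¹ a b)) (l : Fin n) (a b : Fin N) :
    Bd K (fun x => bR s P G l x a b) := by
  refine bd_mulM (fun a b => ?_) hI a b
  simp only [Matrix.sub_apply, Matrix.sum_apply, pdm, Matrix.of_apply]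
  exact (bd_sum _ fun i _ => (bd_TP hs hP i l a b).pd i).sub
    ((bd_kp hs hG l a b).mono (Nat.le_succ K))

end coef

/-- The coefficients of reduced data. -/
theorem dt_bd {K : ℕ} {δ C ε₀ : ℝ} (hδ0 : 0 ≤ δ) (hδ : δ ≤ ε₀)
    (hI : ∀ F : MC n N, SmC F → ∀ δ, 0 ≤ δ → δ ≤ ε₀ → ClC K δ (fun x => F x - 1) →
      (∀ x, IsUnit (F x).det) ∧ SmC (fun x => (F x)⁻¹) ∧ ClC K (C * δ) (fun x => (F x)⁻¹ - 1))
    {Ω : Set (V n)} {s : MF n} {P : MC n N} {G : Fin n → MC n N} (h : Dt (K + 1) δ Ω s P G) :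
    (∀ x, IsUnit (P x).det) ∧ (∀ l a b, Bd K (fun x => bL s P G l x a b)) ∧
      ∀ l a b, Bd K (fun x => bR s P G l x a b) := by
  obtain ⟨h1, h2, h3⟩ := hI P h.sP δ hδ0 hδ fun a b l hl => h.cP a b l (by omega)
  have bs : ∀ i j, Bd (K + 1) (fun x => s x i j) := by
    intro i j
    have e : Bd (K + 1) (fun x => (s x i j - (1 : Matrix (Fin n) (Fin n) ℝ) i j)) :=
      ⟨(h.ss i j).sub contDiff_const, _, h.cs i j⟩
    simpa using e.add (bd_const _ ((1 : Matrix (Fin n) (Fin n) ℝ) i j))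
  have bP : ∀ a b, Bd (K + 1) (fun x => P x a b) := by
    intro a b
    have e : Bd (K + 1) (fun x => (P x - 1) a b) :=
      ⟨(h.sP a b).sub contDiff_const, _, h.cP a b⟩
    simpa using e.add (bd_const _ ((1 : Matrix (Fin N) (Fin N) ℂ) a b))
  have bG : ∀ i a b, Bd (K + 1) (fun x => G i x a b) := fun i a b => ⟨h.sG i a b, _, h.cG i a b⟩
  have bI : ∀ a b, Bd K (fun x => (P x)⁻¹ a b) := by
    intro a b
    have e : Bd K (fun x => ((P x)⁻¹ - 1) a b) := ⟨(h2 a b).sub contDiff_const, _, h3 a b⟩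
    simpa using e.add (bd_const _ ((1 : Matrix (Fin N) (Fin N) ℂ) a b))
  exact ⟨h1, bd_bL bs bP bG bI, bd_bR bs bP bG bI⟩

/-! ### sets -/

theorem cont_sq : Continuous (HY.sq : V n → ℝ) := by
  unfold HY.sq
  fun_prop

theorem open_Bs (ρ : ℝ) : IsOpen (Bs n ρ) := isOpen_lt cont_sq continuous_const

theorem open_Bn : IsOpen (Bn n) := isOpen_lt cont_sq continuous_const

theorem bl0_sub : bl0 n ⊆ Bs n (3 / 4) := by
  intro x hx
  have h : HY.sq x ≤ 1 / 4 := hx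
  show HY.sq x < (3 / 4) ^ 2
  norm_num
  linarith

theorem bdd_bl0 : Bornology.IsBounded (bl0 n) := by
  refine (Metric.isBounded_closedBall (x := (0 : V n)) (r := 1)).subset fun x hx => ?_
  rw [mem_closedBall_zero_iff, pi_norm_le_iff_of_nonneg zero_le_one]
  intro j
  have h : HY.sq x ≤ 1 / 4 := hx
  have h2 : x j ^ 2 ≤ HY.sq x :=
    Finset.single_le_sum (f := fun j => x j ^ 2) (fun j _ => sq_nonneg _) (Finset.mem_univ j)
  rw [Real.norm_eq_abs]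
  exact abs_le_one_iff_mul_self_le_one.2 (by nlinarith)

/-! ### the identity -/

section ident

variable {Ω : Set (V n)} {s₁ s₂ : MF n} {P₁ P₂ : MC n N} {G₁ G₂ Y D : Fin n → MC n N} {k : ℕ}
  {δ : ℝ}

theorem Zt_off (h : RP k δ Ω s₁ s₂ P₁ P₂ G₁ G₂ Y D) (i j : Fin n) {x : V n} (hx : x ∉ Ω) :
    Zt s₁ s₂ P₁ P₂ i j x = 0 := by
  rw [Zt, TP, TP, h.os x hx, h.oP x hx, sub_self]

theorem Qt_off (h : RP k δ Ω s₁ s₂ P₁ P₂ G₁ G₂ Y D) (i : Fin n) {x : V n} (hx : x ∉ Ω) :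
    Qt s₁ s₂ G₁ G₂ i x = 0 := by
  rw [Qt, kp, kp, h.os x hx, sub_eq_zero]
  exact Finset.sum_congr rfl fun j _ => by rw [h.oG j x hx]

theorem sm_Zt (h : RP k δ Ω s₁ s₂ P₁ P₂ G₁ G₂ Y D) (i j : Fin n) :
    SmC (Zt s₁ s₂ P₁ P₂ i j) := fun a b =>
  (sm_TP h.d₂.ss h.d₂.sP i j a b).sub (sm_TP h.d₁.ss h.d₁.sP i j a b)

theorem sm_kp {s : MF n} (hs : SmM s) {G : Fin n → MC n N} (hG : ∀ i, SmC (G i)) (i : Fin n) :
    SmC (kp s G i) := by
  intro a b
  simp only [kp, Matrix.sum_apply, Matrix.smul_apply, smul_eq_mul]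
  exact ContDiff.sum fun j _ => (Complex.ofRealCLM.contDiff.comp (hs i j)).mul (hG j a b)

theorem sm_Qt (h : RP k δ Ω s₁ s₂ P₁ P₂ G₁ G₂ Y D) (i : Fin n) :
    SmC (Qt s₁ s₂ G₁ G₂ i) := fun a b =>
  (sm_kp h.d₂.ss h.d₂.sG i a b).sub (sm_kp h.d₁.ss h.d₁.sG i a b)

theorem pfOk (h : RP k δ Ω s₁ s₂ P₁ P₂ G₁ G₂ Y D) (o : ℂ) :
    PfOk (pf o (Zt s₁ s₂ P₁ P₂) (Qt s₁ s₂ G₁ G₂)) where
  sh i j p q := Complex.reCLM.contDiff.comp (contDiff_const.mul (sm_Zt h j i _ _))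
  sa i p q := (Complex.reCLM.contDiff.comp (contDiff_const.mul (sm_Qt h i _ _))).neg
  sb _ _ _ := contDiff_const
  sc _ _ := contDiff_const
  z x hx := by
    have hx' : x ∉ Ω := fun h' => hx (bl0_sub (h.sub h'))
    refine ⟨fun i j => ?_, fun i => ?_, fun i => rfl, rfl⟩
    · ext p q
      simp [pf, Zt_off h _ _ hx']
    · ext p q
      simp [pf, Qt_off h _ hx']

theorem cont_cf2 {Z : Fin n → Fin n → MC n N} {Q : Fin n → MC n N} (hZ : ∀ i j, SmC (Z i j))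
    (hQ : ∀ i, SmC (Q i)) {u w : V n → Fin N → ℂ} (hu : ContDiff ℝ ∞ u) (hw : ContDiff ℝ ∞ w) :
    Continuous (cf2 Z Q u w) := by
  unfold cf2
  refine Continuous.sub ?_ ?_
  · refine continuous_finsetSum _ fun i _ => continuous_finsetSum _ fun j _ => ?_
    simp only [dotProduct]
    refine continuous_finsetSum _ fun b _ => ?_
    exact ((continuous_pi_iff.1 (contDiff_pd hw j).continuous) b).mul
      ((continuous_pi_iff.1 (contDiff_mulVec (hZ j i) (contDiff_pd hu i)).continuous) b)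
  · refine continuous_finsetSum _ fun i _ => ?_
    simp only [dotProduct]
    refine continuous_finsetSum _ fun b _ => ?_
    exact ((continuous_pi_iff.1 hw.continuous) b).mul
      ((continuous_pi_iff.1 (contDiff_mulVec (hQ i) (contDiff_pd hu i)).continuous) b)

theorem idP (h : RP k δ Ω s₁ s₂ P₁ P₂ G₁ G₂ Y D) (h1 : ∀ x, IsUnit (P₁ x).det)
    (h2 : ∀ x, IsUnit (P₂ x).det) (o : ℂ) :
    IdP s₁ s₂ (e1 (bL s₁ P₁ G₁)) (e1 fun l x => (bR s₂ P₂ G₂ l x)ᵀ)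
      (pf o (Zt s₁ s₂ P₁ P₂) (Qt s₁ s₂ G₁ G₂)) := by
  intro u v hu hv hu0 hv0
  have hsub : Ω ⊆ Bs n (3 / 4) := h.sub.trans bl0_sub
  have hM1 : ∀ x ∈ Ω, Mo (TP s₁ P₁) (kp s₁ G₁) (uc u) x = 0 := by
    intro x hx
    rw [mo_eq h.d₁.ss h.d₁.sP G₁ (h1 x) (sm_uc hu), lv_uc hu x (hu0 x (hsub hx)),
      Matrix.mulVec_zero]
  have hM2 : ∀ x ∈ Ω, Mt (TP s₂ P₂) (kp s₂ G₂) (uc v) x = 0 := by
    intro x hx
    have h3 := lv_uc hv x (hv0 x (hsub hx))
    simp only [Matrix.mulVec_transpose] at h3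
    rw [mt_eq h.d₂.ss h.d₂.sy h.d₂.sP G₂ (h2 x) (sm_uc hv), h3, Matrix.zero_vecMul]
  have hst := h.st (uc u) (uc v) (sm_uc hu) (sm_uc hv) hM1 hM2
  have hst' : ∫ x in Ω, cf2 (Zt s₁ s₂ P₁ P₂) (Qt s₁ s₂ G₁ G₂) (uc u) (uc v) x = 0 := hst
  have hc := cont_cf2 (sm_Zt h) (sm_Qt h) (sm_uc hu) (sm_uc hv)
  have hint : IntegrableOn (fun x => o * cf2 (Zt s₁ s₂ P₁ P₂) (Qt s₁ s₂ G₁ G₂) (uc u) (uc v) x)
      Ω := intOn (bdd_bl0.subset h.sub) (continuous_const.mul hc)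
  calc ∫ x in Bs n (3 / 4), (pf o (Zt s₁ s₂ P₁ P₂) (Qt s₁ s₂ G₁ G₂)).uv u v x
      = ∫ x in Bs n (3 / 4),
        (o * cf2 (Zt s₁ s₂ P₁ P₂) (Qt s₁ s₂ G₁ G₂) (uc u) (uc v) x).re := by
        refine integral_congr_ae (Filter.Eventually.of_forall fun x => ?_)
        exact uv_pf o _ _ hu hv x
    _ = ∫ x in Ω, (o * cf2 (Zt s₁ s₂ P₁ P₂) (Qt s₁ s₂ G₁ G₂) (uc u) (uc v) x).re := by
        refine setIntegral_eq_of_subset_of_forall_sdiff_eq_zero (open_Bs _).measurableSet hsub ?_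
        intro x hx
        simp [cf2, Zt_off h _ _ hx.2, Qt_off h _ hx.2]
    _ = (∫ x in Ω, o * cf2 (Zt s₁ s₂ P₁ P₂) (Qt s₁ s₂ G₁ G₂) (uc u) (uc v) x).re :=
        integral_re (𝕜 := ℂ) hint
    _ = 0 := by
        rw [integral_const_mul, hst', mul_zero, Complex.zero_re]

end ident

/-- Row V-OV. -/
theorem rowOV (hO : HY.RowORTG) : RowOV := by
  intro n N _
  obtain ⟨K, ε, hε, hO⟩ := hO n (N * 2) (N * 2)
  obtain ⟨C, ε₀, hC, hε₀, hI⟩ := H91.inv n N K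
  refine ⟨K + 1, min ε ε₀, lt_min hε hε₀, ?_⟩
  intro Ω s₁ s₂ P₁ P₂ G₁ G₂ Y D h K' hK h1 h2
  have hδ0 : 0 ≤ min ε ε₀ := (lt_min hε hε₀).le
  obtain ⟨i1, b1, -⟩ := dt_bd hδ0 (min_le_right _ _) hI h.d₁
  obtain ⟨i2, -, b2⟩ := dt_bd hδ0 (min_le_right _ _) hI h.d₂
  obtain ⟨M₁, hM₁⟩ := coOk_e1 b1
  obtain ⟨M₂, hM₂⟩ := coOk_e1 (B := fun l x => (bR s₂ P₂ G₂ l x)ᵀ) fun l a b => b2 l b a
  have hM : 0 < max (max M₁ M₂) 1 := lt_max_of_lt_right one_pos
  have key : ∀ o : ℂ, ∫ x in Bs n (3 / 4), (o * dgB s₁ s₂ P₁ P₂ G₁ G₂ K' x).re = 0 := by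
    intro o
    have hsub : Bs n (7 / 8) ×ˢ Bs n (7 / 8) ⊆ Un n := by
      rintro z ⟨hz1, hz2⟩
      have h1 : HY.sq z.1 < (7 / 8) ^ 2 := hz1
      have h2 : HY.sq z.2 < (7 / 8) ^ 2 := hz2
      refine ⟨?_, ?_⟩
      · show HY.sq z.1 < 1
        norm_num at h1
        linarith
      · show HY.sq z.2 < 1
        norm_num at h2
        linarith
    have hUo : IsOpen (Un n) := open_Bn.prod open_Bn
    have h3 := hO _ hM s₁ s₂ (e1 (bL s₁ P₁ G₁)) (e1 fun l x => (bR s₂ P₂ G₂ l x)ᵀ)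
      h.d₁.ss h.d₂.ss
      (fun i j l hl x => (h.d₁.cs i j l (by omega) x).trans (min_le_left _ _))
      (fun i j l hl x => (h.d₂.cs i j l (by omega) x).trans (min_le_left _ _))
      (hM₁ _ ((le_max_left _ _).trans (le_max_left _ _)))
      (hM₂ _ ((le_max_right _ _).trans (le_max_left _ _)))
      (pf o (Zt s₁ s₂ P₁ P₂) (Qt s₁ s₂ G₁ G₂)) (pfOk h o) (idP h i1 i2 o) (kk K')
      (fun p q => (sm_kk hK p q).mono hsub)
      (fun z hz p q => by
        rw [lx_kk hUo hK p q (hsub hz)]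
        simp [kk, h1 z (hsub hz)])
      (fun z hz p q => by
        rw [ly_kk hUo hK p q (hsub hz)]
        simp [kk, h2 z (hsub hz)])
    rw [← h3]
    refine setIntegral_congr_fun (open_Bs _).measurableSet fun x hx => ?_
    have hx1 : x ∈ Bn n := by
      have h1 : HY.sq x < (3 / 4) ^ 2 := hx
      show HY.sq x < 1
      norm_num at h1
      linarith
    exact (dg_pf hUo hK o _ _ (show (x, x) ∈ Un n from ⟨hx1, hx1⟩)).symm
  rw [← setIntegral_eq_integral_of_forall_compl_eq_zero (s := Bs n (3 / 4))]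
  · by_cases hi : IntegrableOn (fun x => dgB s₁ s₂ P₁ P₂ G₁ G₂ K' x) (Bs n (3 / 4))
    · apply Complex.ext
      · have e := integral_re (𝕜 := ℂ) hi
        have e2 := key 1
        simp only [one_mul] at e2
        rw [Complex.zero_re, ← e2]
        exact e.symm
      · have e := integral_im (𝕜 := ℂ) hi
        have e2 := key (-Complex.I)
        have e3 : ∀ z : ℂ, (-Complex.I * z).re = z.im := by
          intro z
          simp
        simp only [e3] at e2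
        rw [Complex.zero_im, ← e2]
        exact e.symm
    · exact integral_undef hi
  · intro x hx
    have hx' : x ∉ Ω := fun h' => hx (bl0_sub (h.sub h'))
    simp [dgB, Zt_off h _ _ hx', Qt_off h _ hx']

end Vale.Agent.P088.PJ.H338
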