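import Vale.Agent.P088.R2.H551.V.Spec
import Vale.Agent.P088.H91.UInv

/-!
# P088, V-OV, first part: complex matrix functions as real systems
-/

open MeasureTheory Set
open scoped ContDiff Matrix

noncomputable section

namespace Vale.Agent.P088.PJ.H338

open Vale.Agent.P088.LR Vale.Agent.P088.LR.U Vale.Agent.P088.LR.H158
open Vale.Agent.P088.HY (VV Bs Bn Un DB dx dy Lx Ly Lv Co CoOk LvG LxG LyG Pf PfOk IdP)

variable {n N : ℕ}

/-! ### components of complex numbers -/

/-- The real (`0`) or imaginary (`1`) part. -/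
def cp (σ : Fin 2) : ℂ →L[ℝ] ℝ := if σ = 0 then Complex.reCLM else Complex.imCLM

/-- `1, i`. -/
def io (σ : Fin 2) : ℂ := if σ = 0 then 1 else Complex.I

/-- `1/2, -i/2`. -/
def cc (σ : Fin 2) : ℂ := if σ = 0 then 1 / 2 else -(1 / 2) * Complex.I

/-- The real matrix of the multiplication by `z`. -/
def rz (z : ℂ) (σ τ : Fin 2) : ℝ := cp σ (z * io τ)

@[simp] theorem cp_zero (z : ℂ) : cp 0 z = z.re := by simp [cp]
@[simp] theorem cp_one (z : ℂ) : cp 1 z = z.im := by simp [cp]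
@[simp] theorem io_zero : io 0 = 1 := by simp [io]
@[simp] theorem io_one : io 1 = Complex.I := by simp [io]
@[simp] theorem cc_zero : cc 0 = 1 / 2 := by simp [cc]
@[simp] theorem cc_one : cc 1 = -(1 / 2) * Complex.I := by simp [cc]

theorem recon (w : ℂ) : ∑ σ, (cp σ w : ℂ) * io σ = w := by
  rw [Fin.sum_univ_two]
  simp [Complex.re_add_im]

theorem rz_sum (z : ℂ) (τ : Fin 2) : ∑ σ, (rz z σ τ : ℂ) * io σ = z * io τ := recon _

theorem cp_mul (σ : Fin 2) (z w : ℂ) : ∑ τ, rz z σ τ * cp τ w = cp σ (z * w) := by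
  conv_rhs => rw [← recon w]
  rw [Finset.mul_sum, map_sum]
  refine Finset.sum_congr rfl fun τ _ => ?_
  have h : z * ((cp τ w : ℂ) * io τ) = (cp τ w : ℝ) • (z * io τ) := by
    rw [Complex.real_smul]; ring
  rw [h, map_smul, smul_eq_mul, rz, mul_comm]

theorem cp_cc (σ τ : Fin 2) (w : ℂ) : cp σ (cc τ * w) = cp τ (cc σ * w) := by
  have h0 : ∀ σ : Fin 2, σ = 0 ∨ σ = 1 := by decide
  rcases h0 σ with rfl | rfl <;> rcases h0 τ with rfl | rfl <;>
    simp [Complex.mul_re, Complex.mul_im]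

theorem re_form (o Z w : ℂ) :
    ∑ σ, ∑ τ, (o * io σ * io τ * Z).re * cp σ (cc τ * w) = (o * Z * w).re := by
  simp only [Fin.sum_univ_two, io_zero, io_one, cp_zero, cp_one, cc_zero, cc_one,
    Complex.mul_re, Complex.mul_im, Complex.I_re, Complex.I_im, Complex.one_re, Complex.one_im,
    Complex.neg_re, Complex.neg_im]
  norm_num
  ring

theorem re_form2 (o Z : ℂ) (a b : Fin 2 → ℝ) :
    ∑ σ, ∑ τ, (o * io σ * io τ * Z).re * (a σ * b τ) =
      (o * Z * (∑ σ, (a σ : ℂ) * io σ) * (∑ τ, (b τ : ℂ) * io τ)).re := by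
  simp only [Fin.sum_univ_two, io_zero, io_one, Complex.mul_re, Complex.mul_im, Complex.I_re,
    Complex.I_im, Complex.one_re, Complex.one_im, Complex.add_re, Complex.add_im,
    Complex.ofReal_re, Complex.ofReal_im]
  ring

/-! ### indices -/

/-- The pair of an index. -/
def ix (p : Fin (N * 2)) : Fin N × Fin 2 := finProdFinEquiv.symm p

/-- The index of a pair. -/
def xi (a : Fin N) (σ : Fin 2) : Fin (N * 2) := finProdFinEquiv (a, σ)

@[simp] theorem ix_xi (a : Fin N) (σ : Fin 2) : ix (xi a σ) = (a, σ) := by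
  simp [ix, xi]

@[simp] theorem xi_ix (p : Fin (N * 2)) : xi (ix p).1 (ix p).2 = p := by
  unfold xi ix
  exact finProdFinEquiv.apply_symm_apply p

theorem sum_ix {E : Type*} [AddCommMonoid E] (f : Fin (N * 2) → E) :
    ∑ p, f p = ∑ a : Fin N, ∑ σ : Fin 2, f (xi a σ) := by
  rw [← Fintype.sum_prod_type', ← Equiv.sum_comp finProdFinEquiv]
  rfl

/-! ### the coefficients and the forms -/

/-- Complex first order coefficients as real ones. -/
def e1 (B : Fin n → MC n N) : Co n (N * 2) where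
  b l x := Matrix.of fun p q => rz (B l x (ix p).1 (ix q).1) (ix p).2 (ix q).2
  c _ := 0

/-- The real part of `o` times the form. -/
def pf (o : ℂ) (Z : Fin n → Fin n → MC n N) (Q : Fin n → MC n N) : Pf n (N * 2) (N * 2) where
  h i j x := Matrix.of fun p q =>
    (o * io (ix p).2 * io (ix q).2 * Z j i x (ix q).1 (ix p).1).re
  a i x := Matrix.of fun p q => -(o * io (ix p).2 * io (ix q).2 * Q i x (ix q).1 (ix p).1).re
  b _ _ := 0
  c _ := 0

/-- Real vectors as complex ones. -/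
def uc (u : Fin (N * 2) → V n → ℝ) (x : V n) (a : Fin N) : ℂ := ∑ σ, (u (xi a σ) x : ℂ) * io σ

/-- A complex matrix function as a real one. -/
def kk (K : KC n N) (p q : Fin (N * 2)) (z : VV n) : ℝ :=
  cp (ix p).2 (cc (ix q).2 * K z (ix p).1 (ix q).1)

/-! ### derivatives of vectors -/

theorem sm_uc {u : Fin (N * 2) → V n → ℝ} (hu : ∀ p, ContDiff ℝ ∞ (u p)) :
    ContDiff ℝ ∞ (uc u) := by
  rw [contDiff_pi]
  intro a
  exact ContDiff.sum fun σ _ => (Complex.ofRealCLM.contDiff.comp (hu _)).mul contDiff_const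

theorem pd_uc {u : Fin (N * 2) → V n → ℝ} (hu : ∀ p, ContDiff ℝ ∞ (u p)) (i : Fin n) :
    pd i (uc u) = uc fun p => pd i (u p) := by
  funext x a
  rw [pd_pi (dfa (sm_uc hu) x)]
  show pd i (fun y => ∑ σ, (u (xi a σ) y : ℂ) * io σ) x = ∑ σ, ((pd i (u (xi a σ)) x : ℝ) : ℂ) * io σ
  have hd : ∀ σ ∈ (Finset.univ : Finset (Fin 2)),
      DifferentiableAt ℝ (fun y => (u (xi a σ) y : ℂ) * io σ) x := fun σ _ =>
    (dfa (Complex.ofRealCLM.contDiff.comp (hu _)) x).mul (differentiableAt_const _)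
  rw [pd_sum hd]
  refine Finset.sum_congr rfl fun σ _ => ?_
  have hs : DifferentiableAt ℝ (fun y => (u (xi a σ) y : ℂ)) x :=
    dfa (Complex.ofRealCLM.contDiff.comp (hu _)) x
  rw [pd_mul hs (differentiableAt_const _), pd_const, mul_zero, add_zero]
  congr 1
  exact pd_clm Complex.ofRealCLM (dfa (hu _) x) i

/-- The real system gives the complex one. -/
theorem lv_uc {s : MF n} {B : Fin n → MC n N} {u : Fin (N * 2) → V n → ℝ}
    (hu : ∀ p, ContDiff ℝ ∞ (u p)) (x : V n) (h : ∀ p, LvG s (e1 B) u p x = 0) :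
    ∑ i, ∑ j, (s x i j : ℂ) • pd i (pd j (uc u)) x + ∑ l, B l x *ᵥ pd l (uc u) x = 0 := by
  funext a
  have h1 : ∀ i j, pd i (uc fun p => pd j (u p)) = uc fun p => pd i (pd j (u p)) := by
    intro i j
    rw [pd_uc fun p => contDiff_pd (hu p) j]
  simp only [pd_uc hu, h1]
  have h2 : ∀ σ, (((LvG s (e1 B) u (xi a σ) x : ℝ) : ℂ)) * io σ = 0 := by
    intro σ
    rw [h]; simp
  have h3 : ∑ σ, ((LvG s (e1 B) u (xi a σ) x : ℝ) : ℂ) * io σ = 0 :=
    Finset.sum_eq_zero fun σ _ => h2 σ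
  rw [Pi.zero_apply, ← h3]
  simp only [LvG, Lv, e1, Matrix.of_apply, ix_xi, Matrix.zero_apply, zero_mul, add_zero,
    Complex.ofReal_add, add_mul, Finset.sum_add_distrib, Pi.add_apply, Finset.sum_apply,
    Pi.smul_apply, smul_eq_mul, Matrix.mulVec, dotProduct]
  congr 1
  · simp only [uc, Complex.ofReal_sum, Complex.ofReal_mul, Finset.sum_mul, Finset.mul_sum]
    rw [Finset.sum_comm (s := (Finset.univ : Finset (Fin 2)))]
    refine Finset.sum_congr rfl fun i _ => ?_
    rw [Finset.sum_comm (s := (Finset.univ : Finset (Fin 2)))]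
    refine Finset.sum_congr rfl fun j _ => ?_
    refine Finset.sum_congr rfl fun σ _ => ?_
    ring
  · have e : ∀ σ : Fin 2, ((∑ q : Fin (N * 2), ∑ l, rz (B l x a (ix q).1) σ (ix q).2 *
        pd l (u q) x : ℝ) : ℂ) * io σ =
        ∑ c : Fin N, ∑ τ : Fin 2, ∑ l, (rz (B l x a c) σ τ : ℂ) * io σ *
          ((pd l (u (xi c τ)) x : ℝ) : ℂ) := by
      intro σ
      rw [sum_ix]
      simp only [ix_xi, Complex.ofReal_sum, Complex.ofReal_mul, Finset.sum_mul]
      refine Finset.sum_congr rfl fun c _ => Finset.sum_congr rfl fun τ _ =>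
        Finset.sum_congr rfl fun l _ => ?_
      ring
    rw [Finset.sum_congr rfl fun σ _ => e σ]
    rw [Finset.sum_comm (s := (Finset.univ : Finset (Fin 2)))]
    rw [Finset.sum_comm (s := (Finset.univ : Finset (Fin n)))]
    refine Finset.sum_congr rfl fun c _ => ?_
    rw [Finset.sum_comm (s := (Finset.univ : Finset (Fin 2)))]
    simp only [uc, Finset.mul_sum]
    rw [Finset.sum_comm (s := (Finset.univ : Finset (Fin n)))]
    refine Finset.sum_congr rfl fun τ _ => ?_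
    rw [Finset.sum_comm (s := (Finset.univ : Finset (Fin 2)))]
    refine Finset.sum_congr rfl fun l _ => ?_
    rw [← Finset.sum_mul, rz_sum]
    ring

/-! ### functions of `(x, y)` -/

theorem kk_fd {K : KC n N} {z : VV n} {p q : Fin (N * 2)}
    (h : DifferentiableAt ℝ (fun z => K z (ix p).1 (ix q).1) z) (v : VV n) :
    fderiv ℝ (kk K p q) z v =
      cp (ix p).2 (cc (ix q).2 * fderiv ℝ (fun z => K z (ix p).1 (ix q).1) z v) := by
  have h1 : HasFDerivAt (fun z => cc (ix q).2 * K z (ix p).1 (ix q).1)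
      (cc (ix q).2 • fderiv ℝ (fun z => K z (ix p).1 (ix q).1) z) z := h.hasFDerivAt.const_mul _
  have h2 := (cp (ix p).2).hasFDerivAt.comp z h1
  have h3 : HasFDerivAt (kk K p q)
      ((cp (ix p).2).comp (cc (ix q).2 • fderiv ℝ (fun z => K z (ix p).1 (ix q).1) z)) z := h2
  rw [h3.fderiv]
  rfl

theorem dfo {F : Type*} [NormedAddCommGroup F] [NormedSpace ℝ F] {O : Set (VV n)} (hO : IsOpen O)
    {f : VV n → F} (hf : ContDiffOn ℝ ∞ f O) {z : VV n} (hz : z ∈ O) : DifferentiableAt ℝ f z :=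
  (hf.contDiffAt (hO.mem_nhds hz)).differentiableAt (by simp)

theorem dx_kk {K : KC n N} {O : Set (VV n)} (hO : IsOpen O) (hK : SmK O K) (p q : Fin (N * 2))
    (i : Fin n) {z : VV n} (hz : z ∈ O) : dx i (kk K p q) z = kk (dxk i K) p q z :=
  kk_fd (dfo hO (hK _ _) hz) _

theorem dy_kk {K : KC n N} {O : Set (VV n)} (hO : IsOpen O) (hK : SmK O K) (p q : Fin (N * 2))
    (i : Fin n) {z : VV n} (hz : z ∈ O) : dy i (kk K p q) z = kk (dyk i K) p q z :=
  kk_fd (dfo hO (hK _ _) hz) _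

theorem sm_dir {F : Type*} [NormedAddCommGroup F] [NormedSpace ℝ F] {O : Set (VV n)}
    (hO : IsOpen O) {f : VV n → F} (hf : ContDiffOn ℝ ∞ f O) (v : VV n) :
    ContDiffOn ℝ ∞ (fun z => fderiv ℝ f z v) O :=
  (hf.fderiv_of_isOpen hO (m := ∞) (by simp)).clm_apply contDiffOn_const

theorem sm_dxk {K : KC n N} {O : Set (VV n)} (hO : IsOpen O) (hK : SmK O K) (i : Fin n) :
    SmK O (dxk i K) := fun a b => sm_dir hO (hK a b) _

theorem sm_dyk {K : KC n N} {O : Set (VV n)} (hO : IsOpen O) (hK : SmK O K) (i : Fin n) :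
    SmK O (dyk i K) := fun a b => sm_dir hO (hK a b) _

theorem dir_congr {O : Set (VV n)} (hO : IsOpen O) {f g : VV n → ℝ} (h : ∀ z ∈ O, f z = g z)
    {z : VV n} (hz : z ∈ O) (v : VV n) : fderiv ℝ f z v = fderiv ℝ g z v := by
  have h1 : f =ᶠ[nhds z] g := by
    filter_upwards [hO.mem_nhds hz] with y hy
    exact h y hy
  rw [h1.fderiv_eq]

theorem dxx_kk {K : KC n N} {O : Set (VV n)} (hO : IsOpen O) (hK : SmK O K) (p q : Fin (N * 2))
    (i j : Fin n) {z : VV n} (hz : z ∈ O) :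
    dx i (dx j (kk K p q)) z = kk (dxk i (dxk j K)) p q z := by
  rw [← dx_kk hO (sm_dxk hO hK j) p q i hz]
  exact dir_congr hO (fun z hz => dx_kk hO hK p q j hz) hz _

theorem dyy_kk {K : KC n N} {O : Set (VV n)} (hO : IsOpen O) (hK : SmK O K) (p q : Fin (N * 2))
    (i j : Fin n) {z : VV n} (hz : z ∈ O) :
    dy i (dy j (kk K p q)) z = kk (dyk i (dyk j K)) p q z := by
  rw [← dy_kk hO (sm_dyk hO hK j) p q i hz]
  exact dir_congr hO (fun z hz => dy_kk hO hK p q j hz) hz _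

theorem dxy_kk {K : KC n N} {O : Set (VV n)} (hO : IsOpen O) (hK : SmK O K) (p q : Fin (N * 2))
    (i j : Fin n) {z : VV n} (hz : z ∈ O) :
    dx i (dy j (kk K p q)) z = kk (dxk i (dyk j K)) p q z := by
  rw [← dx_kk hO (sm_dyk hO hK j) p q i hz]
  exact dir_congr hO (fun z hz => dy_kk hO hK p q j hz) hz _

theorem sm_kk {K : KC n N} {O : Set (VV n)} (hK : SmK O K) (p q : Fin (N * 2)) :
    ContDiffOn ℝ ∞ (kk K p q) O :=
  (cp (ix p).2).contDiff.comp_contDiffOn (contDiffOn_const.mul (hK _ _))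

theorem kk_symm (K : KC n N) (p q : Fin (N * 2)) (z : VV n) :
    kk K p q z = cp (ix q).2 (cc (ix p).2 * K z (ix p).1 (ix q).1) := cp_cc _ _ _

/-- The operator in `x`. -/
theorem lx_kk {s : MF n} {B : Fin n → MC n N} {K : KC n N} {O : Set (VV n)} (hO : IsOpen O)
    (hK : SmK O K) (p q : Fin (N * 2)) {z : VV n} (hz : z ∈ O) :
    LxG s (e1 B) (fun p' => kk K p' q) p z = kk (Lk s B K) p q z := by
  unfold LxG Lx
  have h1 : ∑ i, ∑ j, s z.1 i j * dx i (dx j (kk K p q)) z =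
      cp (ix p).2 (cc (ix q).2 * (∑ i, ∑ j, (s z.1 i j : ℂ) • dxk i (dxk j K) z)
        (ix p).1 (ix q).1) := by
    simp only [dxx_kk hO hK p q _ _ hz, Matrix.sum_apply, Matrix.smul_apply, Finset.mul_sum,
      map_sum]
    refine Finset.sum_congr rfl fun i _ => Finset.sum_congr rfl fun j _ => ?_
    have : cc (ix q).2 * (s z.1 i j : ℂ) • dxk i (dxk j K) z (ix p).1 (ix q).1 =
        (s z.1 i j) • (cc (ix q).2 * dxk i (dxk j K) z (ix p).1 (ix q).1) := by
      rw [Complex.real_smul, smul_eq_mul]; ring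
    rw [this, map_smul]
    rfl
  have h2 : ∑ q', (∑ l, (e1 B).b l z.1 p q' * dx l (kk K q' q) z +
      (e1 B).c z.1 p q' * kk K q' q z) =
      cp (ix p).2 (cc (ix q).2 * (∑ l, B l z.1 * dxk l K z) (ix p).1 (ix q).1) := by
    simp only [dx_kk hO hK _ q _ hz, e1, Matrix.of_apply, Matrix.zero_apply, zero_mul, add_zero,
      Matrix.sum_apply, Matrix.mul_apply, Finset.mul_sum, map_sum, sum_ix, ix_xi]
    rw [Finset.sum_comm (s := (Finset.univ : Finset (Fin n)))]
    refine Finset.sum_congr rfl fun c _ => ?_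
    rw [Finset.sum_comm]
    refine Finset.sum_congr rfl fun l _ => ?_
    have h3 : ∀ τ : Fin 2, kk (dxk l K) (xi c τ) q z = cp τ (cc (ix q).2 * dxk l K z c (ix q).1) := by
      intro τ
      simp [kk]
    simp only [h3, cp_mul]
    congr 1
    ring
  rw [h1, h2, ← map_add, ← mul_add]
  rfl

/-- The operator in `y`. -/
theorem ly_kk {s : MF n} {B : Fin n → MC n N} {K : KC n N} {O : Set (VV n)} (hO : IsOpen O)
    (hK : SmK O K) (p q : Fin (N * 2)) {z : VV n} (hz : z ∈ O) :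
    LyG s (e1 fun l x => (B l x)ᵀ) (fun q' => kk K p q') q z = kk (Rk s B K) p q z := by
  unfold LyG Ly
  have h1 : ∑ i, ∑ j, s z.2 i j * dy i (dy j (kk K p q)) z =
      cp (ix q).2 (cc (ix p).2 * (∑ i, ∑ j, (s z.2 i j : ℂ) • dyk i (dyk j K) z)
        (ix p).1 (ix q).1) := by
    simp only [dyy_kk hO hK p q _ _ hz, Matrix.sum_apply, Matrix.smul_apply, Finset.mul_sum,
      map_sum]
    refine Finset.sum_congr rfl fun i _ => Finset.sum_congr rfl fun j _ => ?_
    have : cc (ix p).2 * (s z.2 i j : ℂ) • dyk i (dyk j K) z (ix p).1 (ix q).1 =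
        (s z.2 i j) • (cc (ix p).2 * dyk i (dyk j K) z (ix p).1 (ix q).1) := by
      rw [Complex.real_smul, smul_eq_mul]; ring
    rw [this, map_smul, kk_symm]
    rfl
  have h2 : ∑ q', (∑ l, (e1 fun l x => (B l x)ᵀ).b l z.2 q q' * dy l (kk K p q') z +
      (e1 fun l x => (B l x)ᵀ).c z.2 q q' * kk K p q' z) =
      cp (ix q).2 (cc (ix p).2 * (∑ l, dyk l K z * B l z.2) (ix p).1 (ix q).1) := by
    simp only [dy_kk hO hK p _ _ hz, e1, Matrix.of_apply, Matrix.zero_apply, zero_mul, add_zero,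
      Matrix.sum_apply, Matrix.mul_apply, Finset.mul_sum, map_sum, sum_ix, ix_xi,
      Matrix.transpose_apply]
    rw [Finset.sum_comm (s := (Finset.univ : Finset (Fin n)))]
    refine Finset.sum_congr rfl fun c _ => ?_
    rw [Finset.sum_comm]
    refine Finset.sum_congr rfl fun l _ => ?_
    have h3 : ∀ τ : Fin 2, kk (dyk l K) p (xi c τ) z = cp τ (cc (ix p).2 * dyk l K z (ix p).1 c) := by
      intro τ
      rw [kk_symm]
      simp
    simp only [h3, cp_mul]
    congr 1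
    ring
  rw [h1, h2, ← map_add, ← mul_add, kk_symm]
  rfl

end Vale.Agent.P088.PJ.H338
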