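import Vale.Agent.P088.R2.H338.V.OvA

/-!
# P088, V-OV, second part: the forms and the identity
-/

open MeasureTheory Set
open scoped ContDiff Matrix

noncomputable section

namespace Vale.Agent.P088.PJ.H338

open Vale.Agent.P088.LR Vale.Agent.P088.LR.U Vale.Agent.P088.LR.H158
open Vale.Agent.P088.HY (VV Bs Bn Un DB dx dy Lx Ly Lv Co CoOk LvG LxG LyG Pf PfOk IdP)

variable {n N : ℕ}

/-! ### the forms -/

/-- The form on the diagonal. -/
theorem dg_pf {K : KC n N} {O : Set (VV n)} (hO : IsOpen O) (hK : SmK O K) (o : ℂ)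
    (Z : Fin n → Fin n → MC n N) (Q : Fin n → MC n N) {x : V n} (hx : (x, x) ∈ O) :
    (pf o Z Q).dg (kk K) x = (o * ((∑ i, ∑ j, (Z j i x * dxk i (dyk j K) (x, x)).trace)
      - ∑ i, (Q i x * dxk i K (x, x)).trace)).re := by
  unfold Pf.dg
  simp only [dxy_kk hO hK _ _ _ _ hx, dx_kk hO hK _ _ _ hx, pf, Matrix.of_apply,
    Matrix.zero_apply, zero_mul, Finset.sum_const_zero, add_zero, sum_ix, ix_xi]
  have hk : ∀ (K : KC n N) (a b : Fin N) (σ τ : Fin 2),
      kk K (xi a σ) (xi b τ) (x, x) = cp σ (cc τ * K (x, x) a b) := by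
    intro K a b σ τ
    simp [kk]
  simp only [hk]
  have key : ∀ a b : Fin N, ∑ σ : Fin 2, ∑ τ : Fin 2,
      ((∑ i, ∑ j, (o * io σ * io τ * Z j i x b a).re *
          cp σ (cc τ * dxk i (dyk j K) (x, x) a b))
        + ∑ i, -(o * io σ * io τ * Q i x b a).re * cp σ (cc τ * dxk i K (x, x) a b)) =
      (o * ((∑ i, ∑ j, Z j i x b a * dxk i (dyk j K) (x, x) a b)
        - ∑ i, Q i x b a * dxk i K (x, x) a b)).re := by
    intro a b
    simp only [Finset.sum_add_distrib]
    have e1 : ∑ σ : Fin 2, ∑ τ : Fin 2, ∑ i, ∑ j, (o * io σ * io τ * Z j i x b a).re *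
        cp σ (cc τ * dxk i (dyk j K) (x, x) a b) =
        ∑ i, ∑ j, (o * Z j i x b a * dxk i (dyk j K) (x, x) a b).re := by
      refine Eq.trans ?_ (Finset.sum_congr rfl fun i _ => Finset.sum_congr rfl fun j _ =>
        re_form o (Z j i x b a) (dxk i (dyk j K) (x, x) a b))
      calc _ = ∑ σ : Fin 2, ∑ i, ∑ j, ∑ τ : Fin 2, (o * io σ * io τ * Z j i x b a).re *
            cp σ (cc τ * dxk i (dyk j K) (x, x) a b) := by
              refine Finset.sum_congr rfl fun σ _ => ?_
              rw [Finset.sum_comm]
              refine Finset.sum_congr rfl fun i _ => ?_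
              rw [Finset.sum_comm]
        _ = _ := by
              rw [Finset.sum_comm]
              refine Finset.sum_congr rfl fun i _ => ?_
              rw [Finset.sum_comm]
    have e2 : ∑ σ : Fin 2, ∑ τ : Fin 2, ∑ i, -(o * io σ * io τ * Q i x b a).re *
        cp σ (cc τ * dxk i K (x, x) a b) =
        -∑ i, (o * Q i x b a * dxk i K (x, x) a b).re := by
      simp only [neg_mul, Finset.sum_neg_distrib]
      congr 1
      refine Eq.trans ?_ (Finset.sum_congr rfl fun i _ =>
        re_form o (Q i x b a) (dxk i K (x, x) a b))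
      calc _ = ∑ σ : Fin 2, ∑ i, ∑ τ : Fin 2, (o * io σ * io τ * Q i x b a).re *
            cp σ (cc τ * dxk i K (x, x) a b) := by
              refine Finset.sum_congr rfl fun σ _ => ?_
              rw [Finset.sum_comm]
        _ = _ := by
              rw [Finset.sum_comm]
    rw [e1, e2, mul_sub, Complex.sub_re, sub_eq_add_neg]
    congr 1
    · simp only [Finset.mul_sum, Complex.re_sum, mul_assoc]
    · simp only [Finset.mul_sum, Complex.re_sum, mul_assoc]
  calc _ = ∑ a : Fin N, ∑ b : Fin N, ∑ σ : Fin 2, ∑ τ : Fin 2,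
      ((∑ i, ∑ j, (o * io σ * io τ * Z j i x b a).re *
          cp σ (cc τ * dxk i (dyk j K) (x, x) a b))
        + ∑ i, -(o * io σ * io τ * Q i x b a).re * cp σ (cc τ * dxk i K (x, x) a b)) := by
        refine Finset.sum_congr rfl fun a _ => ?_
        rw [Finset.sum_comm]
    _ = _ := by
        simp only [key]
        simp only [← Complex.re_sum, ← Finset.mul_sum]
        congr 2
        simp only [Finset.sum_sub_distrib]
        congr 1
        · simp only [Matrix.trace, Matrix.diag_apply, Matrix.mul_apply]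
          calc _ = ∑ a : Fin N, ∑ i, ∑ b : Fin N, ∑ j,
                Z j i x b a * dxk i (dyk j K) (x, x) a b := by
                refine Finset.sum_congr rfl fun a _ => ?_
                rw [Finset.sum_comm]
            _ = ∑ i, ∑ a : Fin N, ∑ b : Fin N, ∑ j,
                Z j i x b a * dxk i (dyk j K) (x, x) a b := by rw [Finset.sum_comm]
            _ = _ := by
                refine Finset.sum_congr rfl fun i _ => ?_
                calc _ = ∑ a : Fin N, ∑ j, ∑ b : Fin N,
                      Z j i x b a * dxk i (dyk j K) (x, x) a b := by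
                      refine Finset.sum_congr rfl fun a _ => ?_
                      rw [Finset.sum_comm]
                  _ = ∑ j, ∑ a : Fin N, ∑ b : Fin N,
                      Z j i x b a * dxk i (dyk j K) (x, x) a b := by rw [Finset.sum_comm]
                  _ = _ := by
                      refine Finset.sum_congr rfl fun j _ => ?_
                      rw [Finset.sum_comm]
        · simp only [Matrix.trace, Matrix.diag_apply, Matrix.mul_apply]
          calc _ = ∑ a : Fin N, ∑ i, ∑ b : Fin N, Q i x b a * dxk i K (x, x) a b := by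
                refine Finset.sum_congr rfl fun a _ => ?_
                rw [Finset.sum_comm]
            _ = ∑ i, ∑ a : Fin N, ∑ b : Fin N, Q i x b a * dxk i K (x, x) a b := by
                rw [Finset.sum_comm]
            _ = _ := by
                refine Finset.sum_congr rfl fun i _ => ?_
                rw [Finset.sum_comm]

/-- The complex form on two vectors. -/
def cf2 (Z : Fin n → Fin n → MC n N) (Q : Fin n → MC n N) (u w : V n → Fin N → ℂ) (x : V n) :
    ℂ :=
  (∑ i, ∑ j, pd j w x ⬝ᵥ (Z j i x *ᵥ pd i u x)) - ∑ i, w x ⬝ᵥ (Q i x *ᵥ pd i u x)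

/-- The form on two vectors. -/
theorem uv_pf (o : ℂ) (Z : Fin n → Fin n → MC n N) (Q : Fin n → MC n N)
    {u v : Fin (N * 2) → V n → ℝ} (hu : ∀ p, ContDiff ℝ ∞ (u p)) (hv : ∀ p, ContDiff ℝ ∞ (v p))
    (x : V n) : (pf o Z Q).uv u v x = (o * cf2 Z Q (uc u) (uc v) x).re := by
  unfold Pf.uv cf2
  simp only [pd_uc hu, pd_uc hv, pf, Matrix.of_apply,
    Matrix.zero_apply, zero_mul, Finset.sum_const_zero, add_zero, sum_ix, ix_xi]
  have key : ∀ a b : Fin N, ∑ σ : Fin 2, ∑ τ : Fin 2,
      ((∑ i, ∑ j, (o * io σ * io τ * Z j i x b a).re * pd i (u (xi a σ)) x *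
          pd j (v (xi b τ)) x)
        + ∑ i, -(o * io σ * io τ * Q i x b a).re * pd i (u (xi a σ)) x * v (xi b τ) x) =
      (o * ((∑ i, ∑ j, Z j i x b a * uc (fun p => pd i (u p)) x a *
          uc (fun p => pd j (v p)) x b)
        - ∑ i, Q i x b a * uc (fun p => pd i (u p)) x a * uc v x b)).re := by
    intro a b
    simp only [Finset.sum_add_distrib]
    have e1 : ∑ σ : Fin 2, ∑ τ : Fin 2, ∑ i, ∑ j, (o * io σ * io τ * Z j i x b a).re *
        pd i (u (xi a σ)) x * pd j (v (xi b τ)) x =
        ∑ i, ∑ j, (o * Z j i x b a * uc (fun p => pd i (u p)) x a *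
          uc (fun p => pd j (v p)) x b).re := by
      simp only [uc, ← re_form2]
      calc _ = ∑ σ : Fin 2, ∑ i, ∑ j, ∑ τ : Fin 2, (o * io σ * io τ * Z j i x b a).re *
            (pd i (u (xi a σ)) x * pd j (v (xi b τ)) x) := by
              refine Finset.sum_congr rfl fun σ _ => ?_
              rw [Finset.sum_comm]
              refine Finset.sum_congr rfl fun i _ => ?_
              rw [Finset.sum_comm]
              simp only [mul_assoc]
        _ = _ := by
              rw [Finset.sum_comm]
              refine Finset.sum_congr rfl fun i _ => ?_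
              rw [Finset.sum_comm]
    have e2 : ∑ σ : Fin 2, ∑ τ : Fin 2, ∑ i, -(o * io σ * io τ * Q i x b a).re *
        pd i (u (xi a σ)) x * v (xi b τ) x =
        -∑ i, (o * Q i x b a * uc (fun p => pd i (u p)) x a * uc v x b).re := by
      simp only [uc, ← re_form2, neg_mul, Finset.sum_neg_distrib]
      congr 1
      calc _ = ∑ σ : Fin 2, ∑ i, ∑ τ : Fin 2, (o * io σ * io τ * Q i x b a).re *
            (pd i (u (xi a σ)) x * v (xi b τ) x) := by
              refine Finset.sum_congr rfl fun σ _ => ?_
              rw [Finset.sum_comm]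
              simp only [mul_assoc]
        _ = _ := by
              rw [Finset.sum_comm]
    rw [e1, e2, mul_sub, Complex.sub_re, sub_eq_add_neg]
    congr 1
    · simp only [Finset.mul_sum, Complex.re_sum, mul_assoc]
    · simp only [Finset.mul_sum, Complex.re_sum, mul_assoc]
  calc _ = ∑ a : Fin N, ∑ b : Fin N, ∑ σ : Fin 2, ∑ τ : Fin 2,
      ((∑ i, ∑ j, (o * io σ * io τ * Z j i x b a).re * pd i (u (xi a σ)) x *
          pd j (v (xi b τ)) x)
        + ∑ i, -(o * io σ * io τ * Q i x b a).re * pd i (u (xi a σ)) x * v (xi b τ) x) := by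
        refine Finset.sum_congr rfl fun a _ => ?_
        rw [Finset.sum_comm]
    _ = _ := by
        simp only [key]
        simp only [← Complex.re_sum, ← Finset.mul_sum]
        congr 2
        simp only [Finset.sum_sub_distrib]
        congr 1
        · simp only [Matrix.mulVec, dotProduct, Finset.mul_sum]
          calc _ = ∑ a : Fin N, ∑ i, ∑ b : Fin N, ∑ j,
                Z j i x b a * uc (fun p => pd i (u p)) x a * uc (fun p => pd j (v p)) x b := by
                refine Finset.sum_congr rfl fun a _ => ?_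
                rw [Finset.sum_comm]
            _ = ∑ i, ∑ a : Fin N, ∑ b : Fin N, ∑ j,
                Z j i x b a * uc (fun p => pd i (u p)) x a * uc (fun p => pd j (v p)) x b := by
                rw [Finset.sum_comm]
            _ = _ := by
                refine Finset.sum_congr rfl fun i _ => ?_
                calc _ = ∑ a : Fin N, ∑ j, ∑ b : Fin N,
                      Z j i x b a * uc (fun p => pd i (u p)) x a *
                        uc (fun p => pd j (v p)) x b := by
                      refine Finset.sum_congr rfl fun a _ => ?_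
                      rw [Finset.sum_comm]
                  _ = ∑ j, ∑ a : Fin N, ∑ b : Fin N,
                      Z j i x b a * uc (fun p => pd i (u p)) x a *
                        uc (fun p => pd j (v p)) x b := by rw [Finset.sum_comm]
                  _ = _ := by
                      refine Finset.sum_congr rfl fun j _ => ?_
                      rw [Finset.sum_comm]
                      refine Finset.sum_congr rfl fun b _ => ?_
                      refine Finset.sum_congr rfl fun a _ => ?_
                      ring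
        · simp only [Matrix.mulVec, dotProduct, Finset.mul_sum]
          calc _ = ∑ a : Fin N, ∑ i, ∑ b : Fin N,
                Q i x b a * uc (fun p => pd i (u p)) x a * uc v x b := by
                refine Finset.sum_congr rfl fun a _ => ?_
                rw [Finset.sum_comm]
            _ = ∑ i, ∑ a : Fin N, ∑ b : Fin N,
                Q i x b a * uc (fun p => pd i (u p)) x a * uc v x b := by
                rw [Finset.sum_comm]
            _ = _ := by
                refine Finset.sum_congr rfl fun i _ => ?_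
                rw [Finset.sum_comm]
                refine Finset.sum_congr rfl fun b _ => ?_
                refine Finset.sum_congr rfl fun a _ => ?_
                ring

/-! ### the operators -/

theorem sm_TP {s : MF n} (hs : SmM s) {P : MC n N} (hP : SmC P) (i j : Fin n) :
    SmC (TP s P i j) := fun a b =>
  (Complex.ofRealCLM.contDiff.comp (hs i j)).mul (hP a b)

theorem mo_eq {s : MF n} (hs : SmM s) {P : MC n N} (hP : SmC P) (G : Fin n → MC n N) {x : V n}
    (hx : IsUnit (P x).det) {u : V n → Fin N → ℂ} (hu : ContDiff ℝ ∞ u) :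
    Mo (TP s P) (kp s G) u x = P x *ᵥ (∑ i, ∑ j, (s x i j : ℂ) • pd i (pd j u) x
      + ∑ l, bL s P G l x *ᵥ pd l u x) := by
  have h1 : ∀ i, pd i (fun y => ∑ j, TP s P i j y *ᵥ pd j u y) x =
      ∑ j, (pdm i (TP s P i j) x *ᵥ pd j u x + (s x i j : ℂ) • (P x *ᵥ pd i (pd j u) x)) := by
    intro i
    rw [pd_sum fun j _ => dfa (contDiff_mulVec (sm_TP hs hP i j) (contDiff_pd hu j)) x]
    refine Finset.sum_congr rfl fun j _ => ?_
    rw [pd_mulVec (sm_TP hs hP i j) (contDiff_pd hu j), TP, Matrix.smul_mulVec]
  have h2 : ∀ l, P x *ᵥ (bL s P G l x *ᵥ pd l u x) =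
      (∑ i, pdm i (TP s P i l) x + kp s G l x) *ᵥ pd l u x := by
    intro l
    rw [Matrix.mulVec_mulVec, bL, ← Matrix.mul_assoc, Matrix.mul_nonsing_inv _ hx, one_mul]
  unfold Mo
  simp only [h1, Matrix.mulVec_add, Matrix.mulVec_sum, Matrix.mulVec_smul, h2,
    Matrix.add_mulVec, Finset.sum_add_distrib, Matrix.sum_mulVec]
  rw [Finset.sum_comm (f := fun i j => pdm i (TP s P i j) x *ᵥ pd j u x)]
  abel

theorem mt_eq {s : MF n} (hs : SmM s) (hy : ∀ x, (s x).IsSymm) {P : MC n N} (hP : SmC P)
    (G : Fin n → MC n N) {x : V n} (hx : IsUnit (P x).det) {w : V n → Fin N → ℂ}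
    (hw : ContDiff ℝ ∞ w) :
    Mt (TP s P) (kp s G) w x = (∑ i, ∑ j, (s x i j : ℂ) • pd i (pd j w) x
      + ∑ l, pd l w x ᵥ* bR s P G l x) ᵥ* P x := by
  have hT : ∀ i j, TP s P i j = TP s P j i := by
    intro i j
    funext y
    rw [TP, TP, (hy y).apply]
  have h1 : ∀ i, pd i (fun y => ∑ j, pd j w y ᵥ* TP s P j i y) x =
      ∑ j, (pd j w x ᵥ* pdm i (TP s P i j) x + (s x i j : ℂ) • (pd i (pd j w) x ᵥ* P x)) := by
    intro i
    have e : (fun y => ∑ j, pd j w y ᵥ* TP s P j i y) =
        fun y => ∑ j, (TP s P i j y)ᵀ *ᵥ pd j w y := by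
      funext y
      refine Finset.sum_congr rfl fun j _ => ?_
      rw [Matrix.mulVec_transpose, hT]
    have hT' : ∀ j, SmC fun y => (TP s P i j y)ᵀ := fun j a b => sm_TP hs hP i j b a
    have e3 : ∀ j, pdm i (fun y => (TP s P i j y)ᵀ) x = (pdm i (TP s P i j) x)ᵀ := fun j => rfl
    rw [e, pd_sum fun j _ => dfa (contDiff_mulVec (hT' j) (contDiff_pd hw j)) x]
    refine Finset.sum_congr rfl fun j _ => ?_
    rw [pd_mulVec (hT' j) (contDiff_pd hw j), e3, Matrix.mulVec_transpose,
      Matrix.mulVec_transpose, TP, Matrix.vecMul_smul]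
  have h2 : ∀ l, (pd l w x ᵥ* bR s P G l x) ᵥ* P x =
      pd l w x ᵥ* (∑ i, pdm i (TP s P i l) x - kp s G l x) := by
    intro l
    rw [Matrix.vecMul_vecMul, bR, Matrix.mul_assoc, Matrix.nonsing_inv_mul _ hx, mul_one]
  unfold Mt
  simp only [h1, Matrix.add_vecMul, Matrix.sum_vecMul, Matrix.smul_vecMul, h2,
    Matrix.vecMul_sub, Finset.sum_add_distrib, Matrix.vecMul_sum, Finset.sum_sub_distrib]
  rw [Finset.sum_comm (f := fun i j => pd j w x ᵥ* pdm i (TP s P i j) x)]
  abel

end Vale.Agent.P088.PJ.H338
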